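import Vale.Agent.Lib.P315.Lower

/-!
# P315: quadratic lower bound for approximate edit distance in the equality-comparison model

Any deterministic decision tree that accesses the two input strings only through equality
comparisons of input symbols and that outputs an `α`-approximation of their edit distance
on all pairs of strings of length `n` over an alphabet of `2 n` symbols must make at least
`n ^ 2 / (4 α ^ 2)` comparisons on some input.
-/

namespace Vale.Agent.Results.P315.EqCmpLowerBound

open Vale.Agent.Lib.P315

theorem result (n : ℕ) (α : ℝ) (hα : 1 ≤ α) (T : EqTree n)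
    (hT : ∀ x y : Fin n → Fin (2 * n),
      (editDist (List.ofFn x) (List.ofFn y) : ℝ) ≤ T.run x y ∧
        T.run x y ≤ α * editDist (List.ofFn x) (List.ofFn y)) :
    ∃ x y : Fin n → Fin (2 * n), (n : ℝ) ^ 2 / (4 * α ^ 2) ≤ T.queries x y :=
  main n α hα T hT

end Vale.Agent.Results.P315.EqCmpLowerBound
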